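import Vale.Agent.P245.QC.Sup
import Vale.Agent.P245.QC.EB

/-! P245, row QD (helper139): functions whose superlevel sets are finite disjoint unions of closed
convex sets -/

open MeasureTheory Set Filter Topology
open scoped ENNReal ContDiff

namespace Vale.Agent.P245.H139

open Vale.Agent.P245.QC

variable {n : ℕ}

/-- finite unions of pairwise disjoint closed convex sets -/
def FinConv (A : Set (EuclideanSpace ℝ (Fin n))) : Prop :=
  ∃ (k : ℕ) (B : Fin k → Set (EuclideanSpace ℝ (Fin n))),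
    (∀ i, Convex ℝ (B i) ∧ IsClosed (B i)) ∧ (∀ i j, i ≠ j → Disjoint (B i) (B j)) ∧
      A = ⋃ i, B i

/-- isoperimetric inequality for compact finite disjoint unions of convex sets, small radii -/
theorem iso_multi {μ : Measure (EuclideanSpace ℝ (Fin n))} [IsProbabilityMeasure μ] {κ r₀ : ℝ}
    (hκ : 0 < κ) (hr₀ : 0 < r₀) (hiso : Iso μ κ r₀) {A : Set (EuclideanSpace ℝ (Fin n))}
    (hA : IsCompact A) (hF : FinConv A) (hA0 : 0 < μ.real A) (hA1 : μ.real A ≤ 1 / 2) :
    ∀ᶠ r in 𝓝[>] (0 : ℝ), μ.real A * (1 + r * √(Real.log (1 / μ.real A)) / κ) ≤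
      μ.real (Metric.cthickening r A) := by
  obtain ⟨k, B, hB, hd, hAB⟩ := hF
  have hsub : ∀ i, B i ⊆ A := fun i => by rw [hAB]; exact subset_iUnion B i
  have hBc : ∀ i, IsCompact (B i) := fun i => hA.of_isClosed_subset (hB i).2 (hsub i)
  have hev : ∀ i j, ∀ᶠ r in 𝓝[>] (0 : ℝ),
      i ≠ j → Disjoint (Metric.cthickening r (B i)) (Metric.cthickening r (B j)) := by
    intro i j
    by_cases hij : i = j
    · exact Eventually.of_forall fun r h => (h hij).elim
    · obtain ⟨δ, hδ, hdis⟩ := (hd i j hij).exists_cthickenings (hBc i) (hB j).2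
      filter_upwards [Ioc_mem_nhdsGT hδ] with r hr _
      exact hdis.mono (Metric.cthickening_mono hr.2 _) (Metric.cthickening_mono hr.2 _)
  have hev2 : ∀ᶠ r in 𝓝[>] (0 : ℝ), ∀ i j,
      i ≠ j → Disjoint (Metric.cthickening r (B i)) (Metric.cthickening r (B j)) := by
    rw [eventually_all]
    intro i
    rw [eventually_all]
    exact hev i
  filter_upwards [hev2, Ioc_mem_nhdsGT hr₀] with r hr hrr
  have hr0 : 0 ≤ r := hrr.1.le
  have h1 : μ.real A = ∑ i, μ.real (B i) := by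
    rw [hAB, ← measureReal_biUnion_finset (s := Finset.univ)]
    · simp
    · intro i _ j _ hij
      exact hd i j hij
    · intro i _
      exact (hB i).2.measurableSet
  have h2 : ∑ i, μ.real (Metric.cthickening r (B i)) ≤ μ.real (Metric.cthickening r A) := by
    rw [← measureReal_biUnion_finset (s := Finset.univ)]
    · refine measureReal_mono (fun x hx => ?_)
      simp only [mem_iUnion] at hx
      obtain ⟨i, -, hx⟩ := hx
      exact Metric.cthickening_subset_of_subset r (hsub i) hx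
    · intro i _ j _ hij
      exact hr i j hij
    · intro i _
      exact Metric.isClosed_cthickening.measurableSet
  refine le_trans ?_ h2
  have h3 : ∀ i, μ.real (B i) * (1 + r * √(Real.log (1 / μ.real A)) / κ) ≤
      μ.real (Metric.cthickening r (B i)) := by
    intro i
    rcases (measureReal_nonneg (μ := μ) (s := B i)).eq_or_lt with h0 | h0
    · rw [← h0, zero_mul]
      exact measureReal_nonneg
    · have hle : μ.real (B i) ≤ μ.real A := measureReal_mono (hsub i)
      refine le_trans ?_ (hiso (B i) (hB i).1 (hB i).2 h0 (hle.trans hA1) r hr0 hrr.2)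
      have h4 : Real.log (1 / μ.real A) ≤ Real.log (1 / μ.real (B i)) :=
        Real.log_le_log (by positivity) (one_div_le_one_div_of_le h0 hle)
      have h5 := Real.sqrt_le_sqrt h4
      gcongr
  calc μ.real A * (1 + r * √(Real.log (1 / μ.real A)) / κ)
      = ∑ i, μ.real (B i) * (1 + r * √(Real.log (1 / μ.real A)) / κ) := by
        rw [← Finset.sum_mul, ← h1]
    _ ≤ ∑ i, μ.real (Metric.cthickening r (B i)) := Finset.sum_le_sum fun i _ => h3 i

/-- lower bound by Fatou -/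
theorem lower' {μ : Measure (EuclideanSpace ℝ (Fin n))} [IsProbabilityMeasure μ] {κ : ℝ}
    (hκ : 0 < κ) {u : EuclideanSpace ℝ (Fin n) → ℝ}
    (hu : Continuous u) (hc : HasCompactSupport u) (hu0 : ∀ x, 0 ≤ u x) {M : ℝ}
    (hloc : ∀ t, M < t → 0 < μ.real {x | t ≤ u x} → ∀ᶠ r in 𝓝[>] (0 : ℝ),
      μ.real {x | t ≤ u x} * (1 + r * √(Real.log (1 / μ.real {x | t ≤ u x})) / κ) ≤
        μ.real (Metric.cthickening r {x | t ≤ u x})) {γ w : ℝ → ℝ} (hγ : Continuous γ)
    (hw : Continuous w) (hγ0 : ∀ t, 0 ≤ γ t) (hw0 : ∀ t, 0 ≤ w t) (hwM : ∀ t ≤ M, w t = 0)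
    (hwγ : ∀ t, M < t → 0 < μ.real {x | t ≤ u x} →
      w t ≤ γ t * √(Real.log (1 / μ.real {x | t ≤ u x}))) {J : ℝ}
    (hJ : ∀ᶠ r in 𝓝[>] (0 : ℝ), ∫ x, Pr γ (Qs u r x) ∂μ ≤ ∫ x, Pr γ (u x) ∂μ + r * J)
    (hJ0 : 0 ≤ J) :
    ∫ x, Pr w (u x) ∂μ ≤ κ * J := by
  obtain ⟨B, hB0, hB⟩ := bdd_of_compact hu hc
  have huB : ∀ x, u x ≤ B := fun x => (le_abs_self _).trans (hB x)
  have i1 : 0 ≤ ∫ x, Pr γ (u x) ∂μ := integral_nonneg fun x => Pr_nonneg hγ0 (hu0 x)
  have i2 : 0 ≤ ∫ x, Pr w (u x) ∂μ := integral_nonneg fun x => Pr_nonneg hw0 (hu0 x)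
  have hm : ∀ v : EuclideanSpace ℝ (Fin n) → ℝ, Measurable fun t : ℝ => μ.real {x | t ≤ v x} := by
    intro v
    exact Antitone.measurable fun s t hst => measureReal_mono fun x hx => le_trans hst hx
  -- the difference quotient
  let d : ℝ → ℝ → ℝ≥0∞ := fun r t =>
    ENNReal.ofReal ((μ.real {x | t ≤ Qs u r x} - μ.real {x | t ≤ u x}) * γ t / r)
  have hdm : ∀ r, Measurable (d r) := fun r =>
    ((((hm _).sub (hm _)).mul hγ.measurable).div_const r).ennreal_ofReal
  have key : ∀ᶠ r in 𝓝[>] (0 : ℝ), ∫⁻ t in Ioi 0, d r t ≤ ENNReal.ofReal J := by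
    filter_upwards [hJ, self_mem_nhdsWithin] with r hr hr0
    have hr0 : 0 < r := hr0
    have hQB : ∀ x, Qs u r x ≤ B := by
      intro x
      obtain ⟨h, -, e⟩ := Qs_attained hu hr0.le x
      rw [e]
      exact huB _
    have hQ0 : ∀ x, 0 ≤ Qs u r x := fun x => (hu0 x).trans (le_Qs_self hu hr0.le x)
    have i3 : 0 ≤ ∫ x, Pr γ (Qs u r x) ∂μ := integral_nonneg fun x => Pr_nonneg hγ0 (hQ0 x)
    have h1 := ENNReal.ofReal_le_ofReal hr
    rw [ENNReal.ofReal_add i1 (by positivity), layer hγ hγ0 (Qs_continuous hu r) hQB hQ0,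
      layer hγ hγ0 hu huB hu0] at h1
    have hfin : ∫⁻ t in Ioi 0, μ {x | t ≤ u x} * ENNReal.ofReal (γ t) ≠ ⊤ := by
      rw [← layer hγ hγ0 hu huB hu0]
      exact ENNReal.ofReal_ne_top
    have h2 : ∫⁻ t in Ioi 0, μ {x | t ≤ Qs u r x} * ENNReal.ofReal (γ t) =
        (∫⁻ t in Ioi 0, μ {x | t ≤ u x} * ENNReal.ofReal (γ t)) +
          ∫⁻ t in Ioi 0, ENNReal.ofReal r * d r t := by
      have m1 : Measurable fun t : ℝ => μ {x | t ≤ u x} * ENNReal.ofReal (γ t) := by
        have : Measurable fun t : ℝ => μ {x | t ≤ u x} :=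
          Antitone.measurable fun s t hst => measure_mono fun x hx => le_trans hst hx
        exact this.mul hγ.measurable.ennreal_ofReal
      rw [← lintegral_add_left m1]
      apply lintegral_congr
      intro t
      have hsub : {x | t ≤ u x} ⊆ {x | t ≤ Qs u r x} := fun x hx =>
        le_trans hx (le_Qs_self hu hr0.le x)
      have hle : μ.real {x | t ≤ u x} ≤ μ.real {x | t ≤ Qs u r x} := measureReal_mono hsub
      simp only [d]
      rw [← ENNReal.ofReal_mul hr0.le, ← ofReal_measureReal (μ := μ) (s := {x | t ≤ u x}),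
        ← ofReal_measureReal (μ := μ) (s := {x | t ≤ Qs u r x}),
        ← ENNReal.ofReal_mul measureReal_nonneg, ← ENNReal.ofReal_mul measureReal_nonneg,
        ← ENNReal.ofReal_add (mul_nonneg measureReal_nonneg (hγ0 t))
          (mul_nonneg hr0.le (div_nonneg (mul_nonneg (sub_nonneg.2 hle) (hγ0 t)) hr0.le))]
      congr 1
      field_simp
      ring
    rw [h2] at h1
    have h3 := (ENNReal.add_le_add_iff_left hfin).1 h1
    rw [lintegral_const_mul _ (hdm r), ENNReal.ofReal_mul hr0.le] at h3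
    exact (ENNReal.mul_le_mul_iff_right (by simpa using hr0) ENNReal.ofReal_ne_top).1 h3
  -- pointwise
  have hpt : ∀ t, ∀ᶠ r in 𝓝[>] (0 : ℝ),
      ENNReal.ofReal (1 / κ) * (μ {x | t ≤ u x} * ENNReal.ofReal (w t)) ≤ d r t := by
    intro t
    by_cases htM : t ≤ M
    · rw [hwM t htM]
      simp
    push Not at htM
    by_cases hp : μ.real {x | t ≤ u x} = 0
    · have : μ {x | t ≤ u x} = 0 := by rwa [measureReal_eq_zero_iff] at hp
      simp [this]
    have hp0 : 0 < μ.real {x | t ≤ u x} := lt_of_le_of_ne measureReal_nonneg (Ne.symm hp)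
    filter_upwards [hloc t htM hp0, self_mem_nhdsWithin] with r hr hr0
    have hr0 : 0 < r := hr0
    rw [← setOf_le_Qs hu hr0.le] at hr
    simp only [d]
    rw [← ofReal_measureReal (μ := μ) (s := {x | t ≤ u x}),
      ← ENNReal.ofReal_mul measureReal_nonneg, ← ENNReal.ofReal_mul (by positivity)]
    apply ENNReal.ofReal_le_ofReal
    rw [le_div_iff₀ hr0]
    set p := μ.real {x | t ≤ u x} with hpdef
    set q := μ.real {x | t ≤ Qs u r x} with hqdef
    have h2 := hwγ t htM hp0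
    have h3 : p * (1 + r * √(Real.log (1 / p)) / κ) * γ t ≤ q * γ t :=
      mul_le_mul_of_nonneg_right hr (hγ0 t)
    have h4 : r / κ * p * w t ≤ r / κ * p * (γ t * √(Real.log (1 / p))) :=
      mul_le_mul_of_nonneg_left h2 (by positivity)
    calc 1 / κ * (p * w t) * r = r / κ * p * w t := by ring
      _ ≤ r / κ * p * (γ t * √(Real.log (1 / p))) := h4
      _ = p * (1 + r * √(Real.log (1 / p)) / κ) * γ t - p * γ t := by ring
      _ ≤ (q - p) * γ t := by linarith
  -- Fatou along a sequence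
  obtain ⟨s, hs⟩ : ∃ s : ℕ → ℝ, Tendsto s atTop (𝓝[>] (0 : ℝ)) :=
    exists_seq_tendsto (𝓝[>] (0 : ℝ))
  have hF := lintegral_liminf_le (μ := volume.restrict (Ioi (0 : ℝ))) (u := atTop)
    (fun k => hdm (s k))
  have h5 : ∫⁻ t in Ioi 0, ENNReal.ofReal (1 / κ) * (μ {x | t ≤ u x} * ENNReal.ofReal (w t)) ≤
      ∫⁻ t in Ioi 0, liminf (fun k => d (s k) t) atTop := by
    apply lintegral_mono
    intro t
    exact le_liminf_of_le (by isBoundedDefault) (hs.eventually (hpt t))
  have h6 : liminf (fun k => ∫⁻ t in Ioi 0, d (s k) t) atTop ≤ ENNReal.ofReal J :=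
    liminf_le_of_frequently_le' (hs.eventually key).frequently
  have h7 := h5.trans (hF.trans h6)
  have m2 : Measurable fun t : ℝ => μ {x | t ≤ u x} * ENNReal.ofReal (w t) := by
    have : Measurable fun t : ℝ => μ {x | t ≤ u x} :=
      Antitone.measurable fun s t hst => measure_mono fun x hx => le_trans hst hx
    exact this.mul hw.measurable.ennreal_ofReal
  rw [lintegral_const_mul _ m2, ← layer hw hw0 hu huB hu0, ← ENNReal.ofReal_mul (by positivity),
    ENNReal.ofReal_le_ofReal_iff hJ0] at h7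
  rw [one_div, inv_mul_le_iff₀ hκ] at h7
  exact h7

/-- upper bound for the increment, for `|f|` -/
theorem upper' {f : EuclideanSpace ℝ (Fin n) → ℝ} (hf : ContDiff ℝ ∞ f)
    (hc : HasCompactSupport f) {γ : ℝ → ℝ} (hγ : Continuous γ)
    (hγ0 : ∀ t, 0 ≤ γ t) {ε : ℝ} (hε : 0 < ε) :
    ∃ δ > 0, ∀ r, 0 < r → r ≤ δ → ∀ x,
      Pr γ (Qs (fun y => |f y|) r x) - Pr γ |f x| ≤
        r * ((‖gradient f x‖ + ε) * (γ |f x| + ε)) := by
  have hfc := hf.continuous
  have huc' : Continuous fun y => |f y| := hfc.abs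
  obtain ⟨B, hB0, hB⟩ := bdd_of_compact hfc hc
  have hdiff : Differentiable ℝ f := hf.differentiable (by simp)
  have hdc : Continuous (fderiv ℝ f) := hf.continuous_fderiv (by simp)
  have hdcs : HasCompactSupport (fderiv ℝ f) := hc.fderiv ℝ
  obtain ⟨L, hL⟩ := hdcs.exists_bound_of_continuous hdc
  have hL0 : 0 ≤ L := (norm_nonneg _).trans (hL 0)
  have huc : UniformContinuous (fderiv ℝ f) := hdcs.uniformContinuous_of_continuous hdc
  obtain ⟨δ1, hδ1, h1⟩ := Metric.uniformContinuous_iff.1 huc ε hε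
  have hγu : UniformContinuousOn γ (Icc 0 B) :=
    isCompact_Icc.uniformContinuousOn_of_continuous hγ.continuousOn
  obtain ⟨δ2, hδ2, h2⟩ := Metric.uniformContinuousOn_iff.1 hγu ε hε
  refine ⟨min (δ1 / 2) (δ2 / (2 * (L + 1))), by positivity, fun r hr hrδ x => ?_⟩
  have hr1 : r < δ1 := lt_of_le_of_lt (hrδ.trans (min_le_left _ _)) (by linarith)
  have hr2 : r * (L + 1) < δ2 := by
    have := hrδ.trans (min_le_right _ _)
    rw [le_div_iff₀ (by positivity)] at this
    nlinarith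
  obtain ⟨h, hh, e⟩ := Qs_attained huc' hr.le x
  have e : Qs (fun y => |f y|) r x = |f (x + h)| := e
  have hh' : ‖h‖ ≤ r := by simpa using hh
  have hng : ‖gradient f x‖ = ‖fderiv ℝ f x‖ := by
    rw [gradient, LinearIsometryEquiv.norm_map]
  -- first order bound
  have hfd : |f (x + h)| - |f x| ≤ r * (‖gradient f x‖ + ε) := by
    have hb : ∀ y ∈ Metric.closedBall x r, ‖fderiv ℝ f y - fderiv ℝ f x‖ ≤ ε := by
      intro y hy
      have := h1 (a := y) (b := x) (lt_of_le_of_lt hy hr1)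
      rw [dist_eq_norm] at this
      exact this.le
    have := (convex_closedBall x r).norm_image_sub_le_of_norm_fderiv_le'
      (fun y _ => hdiff y) hb (Metric.mem_closedBall_self hr.le)
      (y := x + h) (by simpa [dist_eq_norm] using hh')
    rw [add_sub_cancel_left, Real.norm_eq_abs] at this
    have h4 : |fderiv ℝ f x h| ≤ ‖fderiv ℝ f x‖ * ‖h‖ := (fderiv ℝ f x).le_opNorm h
    have h5 : |f (x + h)| - |f x| ≤ |f (x + h) - f x| := abs_sub_abs_le_abs_sub _ _
    have h6 : |f (x + h) - f x| ≤ |f (x + h) - f x - fderiv ℝ f x h| + |fderiv ℝ f x h| := by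
      have := abs_add_le (f (x + h) - f x - fderiv ℝ f x h) (fderiv ℝ f x h)
      simpa using this
    rw [hng]
    nlinarith [norm_nonneg (fderiv ℝ f x), norm_nonneg h]
  -- Lipschitz bound
  have hlip : |f (x + h)| - |f x| ≤ L * r := by
    have := convex_univ.norm_image_sub_le_of_norm_fderiv_le (𝕜 := ℝ) (f := f) (C := L)
      (fun y _ => hdiff y) (fun y _ => hL y) (mem_univ x) (mem_univ (x + h))
    rw [add_sub_cancel_left, Real.norm_eq_abs] at this
    have h5 : |f (x + h)| - |f x| ≤ |f (x + h) - f x| := abs_sub_abs_le_abs_sub _ _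
    exact (h5.trans this).trans (mul_le_mul_of_nonneg_left hh' hL0)
  have hge : |f x| ≤ Qs (fun y => |f y|) r x := le_Qs_self huc' hr.le x
  have hQB : Qs (fun y => |f y|) r x ≤ B := by rw [e]; exact hB _
  have hbound : ∀ t ∈ Icc |f x| (Qs (fun y => |f y|) r x), γ t ≤ γ |f x| + ε := by
    intro t ht
    have hd : dist t |f x| < δ2 := by
      rw [Real.dist_eq, abs_of_nonneg (by linarith [ht.1])]
      have : t - |f x| ≤ L * r := by
        have := ht.2
        rw [e] at this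
        linarith
      nlinarith
    have := h2 t ⟨(abs_nonneg _).trans ht.1, ht.2.trans hQB⟩ |f x|
      ⟨abs_nonneg _, hB x⟩ hd
    rw [Real.dist_eq] at this
    have := (abs_lt.1 this).2
    linarith
  have hsplit : Pr γ (Qs (fun y => |f y|) r x) - Pr γ |f x| =
      ∫ t in |f x|..(Qs (fun y => |f y|) r x), γ t := by
    unfold Pr
    rw [intervalIntegral.integral_interval_sub_left (hγ.intervalIntegrable _ _)
      (hγ.intervalIntegrable _ _)]
  rw [hsplit]
  calc ∫ t in |f x|..(Qs (fun y => |f y|) r x), γ t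
      ≤ ∫ _t in |f x|..(Qs (fun y => |f y|) r x), (γ |f x| + ε) := by
        apply intervalIntegral.integral_mono_on hge (hγ.intervalIntegrable _ _)
          (by simp) hbound
    _ = (Qs (fun y => |f y|) r x - |f x|) * (γ |f x| + ε) := by
        rw [intervalIntegral.integral_const, smul_eq_mul]
    _ ≤ (r * (‖gradient f x‖ + ε)) * (γ |f x| + ε) := by
        apply mul_le_mul_of_nonneg_right _ (by have := hγ0 |f x|; linarith)
        rw [e]
        exact hfd
    _ = r * ((‖gradient f x‖ + ε) * (γ |f x| + ε)) := by ring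

/-- functional inequality for `|f|`, `f` signed, with superlevel sets of `|f|` finite disjoint unions
of closed convex sets -/
theorem sup' {μ : Measure (EuclideanSpace ℝ (Fin n))} [IsProbabilityMeasure μ] {κ r₀ : ℝ}
    (hκ : 0 < κ) (hr₀ : 0 < r₀) (hiso : Iso μ κ r₀) {f : EuclideanSpace ℝ (Fin n) → ℝ}
    (hf : ContDiff ℝ ∞ f) (hc : HasCompactSupport f)
    (hq : ∀ t, 0 < t → FinConv {x | t ≤ |f x|}) {M : ℝ} (hM0 : 0 ≤ M)
    (hM : ∀ t, M < t → μ.real {x | t ≤ |f x|} ≤ 1 / 2) (γ w : ℝ → ℝ) (hγ : Continuous γ)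
    (hw : Continuous w) (hγ0 : ∀ t, 0 ≤ γ t) (hw0 : ∀ t, 0 ≤ w t) (hwM : ∀ t ≤ M, w t = 0)
    (hwγ : ∀ t, M < t → 0 < μ.real {x | t ≤ |f x|} →
      w t ≤ γ t * √(Real.log (1 / μ.real {x | t ≤ |f x|}))) :
    ∫ x, (∫ t in (0 : ℝ)..|f x|, w t) ∂μ ≤ κ * ∫ x, γ |f x| * ‖gradient f x‖ ∂μ := by
  have hfc := hf.continuous
  set u : EuclideanSpace ℝ (Fin n) → ℝ := fun y => |f y| with hudef
  have huc : Continuous u := hfc.abs
  have hucs : HasCompactSupport u := hc.comp_left (g := fun t : ℝ => |t|) abs_zero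
  have hu0 : ∀ x, 0 ≤ u x := fun x => abs_nonneg _
  obtain ⟨B, hB0, hB⟩ := bdd_of_compact hfc hc
  have hfB : ∀ x, u x ≤ B := fun x => hB x
  have hdc : Continuous (fderiv ℝ f) := hf.continuous_fderiv (by simp)
  have hdcs : HasCompactSupport (fderiv ℝ f) := hc.fderiv ℝ
  obtain ⟨L, hL⟩ := hdcs.exists_bound_of_continuous hdc
  have hng : ∀ x, ‖gradient f x‖ = ‖fderiv ℝ f x‖ := by
    intro x
    rw [gradient, LinearIsometryEquiv.norm_map]
  have hgc : Continuous fun x => ‖gradient f x‖ := by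
    simp_rw [hng]
    exact hdc.norm
  have hgi : Integrable (fun x => ‖gradient f x‖) μ := by
    refine int_bdd hgc (B := L) fun x => ?_
    rw [abs_of_nonneg (norm_nonneg _), hng]
    exact hL x
  have hγb : ∃ Γ, ∀ x, |γ (u x)| ≤ Γ := by
    obtain ⟨Γ, hΓ⟩ := (isCompact_Icc (a := (0 : ℝ)) (b := B)).exists_bound_of_continuousOn
      hγ.continuousOn
    exact ⟨Γ, fun x => hΓ _ ⟨hu0 x, hfB x⟩⟩
  obtain ⟨Γ, hΓ⟩ := hγb
  have hγi : Integrable (fun x => γ (u x)) μ := int_bdd (hγ.comp huc) hΓ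
  have hγgi : Integrable (fun x => γ (u x) * ‖gradient f x‖) μ := by
    refine int_bdd ((hγ.comp huc).mul hgc) (B := Γ * L) fun x => ?_
    rw [abs_mul]
    apply mul_le_mul (hΓ x) _ (abs_nonneg _) ((abs_nonneg _).trans (hΓ x))
    rw [abs_of_nonneg (norm_nonneg _), hng]
    exact hL x
  have hloc : ∀ t, M < t → 0 < μ.real {x | t ≤ u x} → ∀ᶠ r in 𝓝[>] (0 : ℝ),
      μ.real {x | t ≤ u x} * (1 + r * √(Real.log (1 / μ.real {x | t ≤ u x})) / κ) ≤
        μ.real (Metric.cthickening r {x | t ≤ u x}) := by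
    intro t ht hp
    have ht0 : 0 < t := lt_of_le_of_lt hM0 ht
    have hcl : IsClosed {x | t ≤ u x} := isClosed_le continuous_const huc
    have hcomp : IsCompact {x | t ≤ u x} := by
      refine hucs.isCompact.of_isClosed_subset hcl fun x hx => subset_tsupport _ ?_
      have hx' : t ≤ u x := hx
      exact (lt_of_lt_of_le ht0 hx').ne'
    exact iso_multi hκ hr₀ hiso hcomp (hq t ht0) hp (hM t ht)
  have key : ∀ ε : ℝ, 0 < ε → ∫ x, Pr w (u x) ∂μ ≤
      κ * (∫ x, γ (u x) * ‖gradient f x‖ ∂μ + ε * ((∫ x, γ (u x) ∂μ)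
        + (∫ x, ‖gradient f x‖ ∂μ) + ε)) := by
    intro ε hε
    obtain ⟨δ, hδ, h1⟩ := upper' hf hc hγ hγ0 hε
    refine lower' hκ huc hucs hu0 hloc hγ hw hγ0 hw0 hwM hwγ ?_ ?_
    · filter_upwards [Ioc_mem_nhdsGT hδ] with r hr
      have hr0 : 0 < r := hr.1
      have hQ0 : ∀ x, 0 ≤ Qs u r x := fun x => (hu0 x).trans (le_Qs_self huc hr0.le x)
      have hQB : ∀ x, Qs u r x ≤ B := by
        intro x
        obtain ⟨h, -, e⟩ := Qs_attained huc hr0.le x
        rw [e]
        exact hfB _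
      have h3 : ∫ x, Pr γ (Qs u r x) ∂μ - ∫ x, Pr γ (u x) ∂μ ≤
          ∫ x, r * ((‖gradient f x‖ + ε) * (γ (u x) + ε)) ∂μ := by
        rw [← integral_sub (int_Pr hγ hγ0 (Qs_continuous huc r) hQB hQ0)
          (int_Pr hγ hγ0 huc hfB hu0)]
        apply integral_mono ((int_Pr hγ hγ0 (Qs_continuous huc r) hQB hQ0).sub
          (int_Pr hγ hγ0 huc hfB hu0)) _ (fun x => h1 r hr0 hr.2 x)
        apply Integrable.const_mul
        have : (fun x => (‖gradient f x‖ + ε) * (γ (u x) + ε)) = fun x =>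
            γ (u x) * ‖gradient f x‖ + (ε * γ (u x) + (ε * ‖gradient f x‖ + ε * ε)) := by
          funext x
          ring
        rw [this]
        exact hγgi.add ((hγi.const_mul ε).add ((hgi.const_mul ε).add (integrable_const _)))
      rw [integral_const_mul] at h3
      have h4 : ∫ x, (‖gradient f x‖ + ε) * (γ (u x) + ε) ∂μ =
          ∫ x, γ (u x) * ‖gradient f x‖ ∂μ + ε * ((∫ x, γ (u x) ∂μ)
            + (∫ x, ‖gradient f x‖ ∂μ) + ε) := by
        have : (fun x => (‖gradient f x‖ + ε) * (γ (u x) + ε)) = fun x =>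
            γ (u x) * ‖gradient f x‖ + (ε * γ (u x) + (ε * ‖gradient f x‖ + ε * ε)) := by
          funext x
          ring
        have a1 : Integrable (fun x => ε * ‖gradient f x‖ + ε * ε) μ :=
          (hgi.const_mul ε).add (integrable_const _)
        have a2 : Integrable (fun x => ε * γ (u x) + (ε * ‖gradient f x‖ + ε * ε)) μ :=
          (hγi.const_mul ε).add a1
        rw [this, integral_add hγgi a2, integral_add (hγi.const_mul ε) a1,
          integral_add (hgi.const_mul ε) (integrable_const _),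
          integral_const_mul, integral_const_mul, integral_const]
        simp
        ring
      rw [h4] at h3
      linarith
    · have j1 : 0 ≤ ∫ x, γ (u x) * ‖gradient f x‖ ∂μ :=
        integral_nonneg fun x => mul_nonneg (hγ0 _) (norm_nonneg _)
      have j2 : 0 ≤ ∫ x, γ (u x) ∂μ := integral_nonneg fun x => hγ0 _
      have j3 : 0 ≤ ∫ x, ‖gradient f x‖ ∂μ := integral_nonneg fun x => norm_nonneg _
      positivity
  have hlim : Tendsto (fun ε : ℝ => κ * (∫ x, γ (u x) * ‖gradient f x‖ ∂μ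
      + ε * ((∫ x, γ (u x) ∂μ) + (∫ x, ‖gradient f x‖ ∂μ) + ε))) (𝓝[>] 0)
      (𝓝 (κ * (∫ x, γ (u x) * ‖gradient f x‖ ∂μ
      + 0 * ((∫ x, γ (u x) ∂μ) + (∫ x, ‖gradient f x‖ ∂μ) + 0)))) := by
    apply Tendsto.mono_left _ nhdsWithin_le_nhds
    have : Continuous fun ε : ℝ => κ * (∫ x, γ (u x) * ‖gradient f x‖ ∂μ
      + ε * ((∫ x, γ (u x) ∂μ) + (∫ x, ‖gradient f x‖ ∂μ) + ε)) := by fun_prop
    exact this.tendsto 0
  rw [zero_mul, add_zero] at hlim
  refine ge_of_tendsto hlim ?_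
  filter_upwards [self_mem_nhdsWithin] with ε hε
  exact key ε hε

end Vale.Agent.P245.H139
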