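import Vale.Agent.P245.H139.Multi
import Vale.Agent.P245.H847.Quasi

/-! P245, row QD (helper139): logarithmic Sobolev inequality for smooth compactly supported `f`,
of any sign, such that every superlevel set of `|f|` is a finite disjoint union of closed convex
sets -/

open MeasureTheory Set Filter Topology
open scoped ENNReal ContDiff

namespace Vale.Agent.P245.H139

open Vale.Agent.P245.QC Vale.Agent.P245.QC.H440

/-- row EB for `|f|` -/
theorem eb' {n : ℕ} {μ : Measure (EuclideanSpace ℝ (Fin n))} [IsProbabilityMeasure μ] {κ : ℝ}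
    (hκ : 0 < κ) {f : EuclideanSpace ℝ (Fin n) → ℝ} (hf : ContDiff ℝ ∞ f)
    (hfc : HasCompactSupport f) {M : ℝ} (hM : 0 ≤ M)
    (hmed : ∀ t, M < t → μ.real {x | t ≤ |f x|} ≤ 1 / 2)
    (hsup : ∀ γ w : ℝ → ℝ, Continuous γ → Continuous w →
      (∀ t, 0 ≤ γ t) → (∀ t, 0 ≤ w t) → (∀ t ≤ M, w t = 0) →
      (∀ t, M < t → 0 < μ.real {x | t ≤ |f x|} →
        w t ≤ γ t * √(Real.log (1 / μ.real {x | t ≤ |f x|}))) →
      ∫ x, (∫ t in (0 : ℝ)..|f x|, w t) ∂μ ≤ κ * ∫ x, γ |f x| * ‖gradient f x‖ ∂μ)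
    {G : ℝ} (hG : 0 < G) (hint : ∫ x, max (|f x| - M) 0 ^ 2 ∂μ ≤ G) :
    ∫ x, max (|f x| - M) 0 ^ 2 * Real.log (Real.exp 1 + max (|f x| - M) 0 ^ 2 / G) ∂μ ≤
      64 * κ ^ 2 * ∫ x, ‖gradient f x‖ ^ 2 ∂μ := by
  have hfcont : Continuous fun x => |f x| := hf.continuous.abs
  have hac : HasCompactSupport fun x => |f x| := hfc.comp_left (g := fun t : ℝ => |t|) abs_zero
  have h0M : max (0 - M) 0 = 0 := max_eq_right (by linarith)
  -- integrability
  have hint0 : Integrable (fun x => max (|f x| - M) 0 ^ 2) μ := by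
    have hc : HasCompactSupport ((fun t : ℝ => max (t - M) 0 ^ 2) ∘ fun x => |f x|) :=
      hac.comp_left (by simp only [h0M]; norm_num)
    exact Continuous.integrable_of_hasCompactSupport
      ((by fun_prop : Continuous fun t : ℝ => max (t - M) 0 ^ 2).comp hfcont) hc
  have hPint : Integrable (fun x => Pf M G |f x|) μ := by
    have hc : HasCompactSupport ((Pf M G) ∘ fun x => |f x|) :=
      hac.comp_left (by unfold Pf; rw [h0M]; simp)
    exact Continuous.integrable_of_hasCompactSupport ((cont_Pf hG).comp hfcont) hc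
  have hfd : Continuous (fderiv ℝ f) := hf.continuous_fderiv (by norm_num)
  have hgr : ∀ x, ‖gradient f x‖ = ‖fderiv ℝ f x‖ := fun x => by
    unfold gradient; simp
  have hDc : HasCompactSupport (fun x => ‖fderiv ℝ f x‖) := (hfc.fderiv ℝ).norm
  have hDint : Integrable (fun x => ‖gradient f x‖ ^ 2) μ := by
    simp_rw [hgr]
    refine Continuous.integrable_of_hasCompactSupport (hfd.norm.pow 2) ?_
    exact hDc.comp_left (g := fun t : ℝ => t ^ 2) (by norm_num)
  have hgint : Integrable (fun x => gf M G |f x| * ‖gradient f x‖) μ := by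
    simp_rw [hgr]
    refine Continuous.integrable_of_hasCompactSupport
      (((cont_gf hG).comp hfcont).mul hfd.norm) ?_
    exact hDc.mul_left
  -- apply the functional inequality
  have key := hsup (gf M G) (wf M G) (cont_gf hG) (cont_wf hG) (fun t => gf_nonneg t)
    (fun t => wf_nonneg hG t)
    (fun t ht => by
      unfold wf
      rw [max_eq_right (by linarith : t - M ≤ 0)]; simp)
    (fun t ht hpos => by
      refine wf_le_gf hG hpos (hmed t ht) ?_
      have h1 := mul_meas_ge_le_integral_of_nonneg (μ := μ)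
        (f := fun x => max (|f x| - M) 0 ^ 2) (Eventually.of_forall fun x => by positivity) hint0
        (max (t - M) 0 ^ 2)
      have h2 : μ.real {x | t ≤ |f x|} ≤ μ.real {x | max (t - M) 0 ^ 2 ≤ max (|f x| - M) 0 ^ 2} := by
        refine measureReal_mono (fun x hx => ?_)
        have hx' : t ≤ |f x| := hx
        show max (t - M) 0 ^ 2 ≤ max (|f x| - M) 0 ^ 2
        exact pow_le_pow_left₀ (le_max_right _ _) (max_le_max (by linarith) le_rfl) 2
      calc μ.real {x | t ≤ |f x|} * max (t - M) 0 ^ 2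
          ≤ μ.real {x | max (t - M) 0 ^ 2 ≤ max (|f x| - M) 0 ^ 2} * max (t - M) 0 ^ 2 := by
            gcongr
        _ = max (t - M) 0 ^ 2 * μ.real {x | max (t - M) 0 ^ 2 ≤ max (|f x| - M) 0 ^ 2} := by ring
        _ ≤ ∫ x, max (|f x| - M) 0 ^ 2 ∂μ := h1
        _ ≤ G := hint)
  simp_rw [int_wf hG hM] at key
  rw [integral_const_mul] at key
  have hyoung : 8 * κ * ∫ x, gf M G |f x| * ‖gradient f x‖ ∂μ ≤
      1 / 2 * (∫ x, Pf M G |f x| ∂μ) + 32 * κ ^ 2 * ∫ x, ‖gradient f x‖ ^ 2 ∂μ := by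
    rw [← integral_const_mul, ← integral_const_mul, ← integral_const_mul, ← integral_add
      (hPint.const_mul _) (hDint.const_mul _)]
    refine integral_mono (hgint.const_mul _) ((hPint.const_mul _).add (hDint.const_mul _))
      (fun x => ?_)
    simp only
    rw [← gf_sq hG]
    nlinarith [sq_nonneg (gf M G |f x| - 8 * κ * ‖gradient f x‖)]
  have hfin : ∫ x, Pf M G |f x| ∂μ ≤ 64 * κ ^ 2 * ∫ x, ‖gradient f x‖ ^ 2 ∂μ := by
    nlinarith [key, hyoung]
  exact hfin

/-- row FIN for signed `f`, superlevel sets of `|f|` finite disjoint unions of closed convex sets -/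
theorem fin' {n : ℕ} {μ : Measure (EuclideanSpace ℝ (Fin n))} [IsProbabilityMeasure μ]
    {κ r₀ P : ℝ} (hκ : 0 < κ) (hr₀ : 0 < r₀) (hIso : Iso μ κ r₀)
    (hPoin : ∀ f : EuclideanSpace ℝ (Fin n) → ℝ, ContDiff ℝ ∞ f → HasCompactSupport f →
      (∫ x, f x ^ 2 ∂μ) - (∫ x, f x ∂μ) ^ 2 ≤ P * ∫ x, ‖gradient f x‖ ^ 2 ∂μ)
    {f : EuclideanSpace ℝ (Fin n) → ℝ} (hf : ContDiff ℝ ∞ f) (hfc : HasCompactSupport f)
    (hq : ∀ t, 0 < t → FinConv {x | t ≤ |f x|}) :
    Entropy μ (fun x => f x ^ 2) ≤ (60 * P + 640 * κ ^ 2) * ∫ x, ‖gradient f x‖ ^ 2 ∂μ := by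
  have hcf : Continuous fun x => |f x| := hf.continuous.abs
  have hac : HasCompactSupport fun x => |f x| := hfc.comp_left (g := fun t : ℝ => |t|) abs_zero
  obtain ⟨M, hM0, hMhalf, hMvar⟩ := H12.med n μ (fun x => |f x|) hcf hac fun x => abs_nonneg _
  have hVar0 := hPoin f hf hfc
  have hVar : (∫ x, |f x| ^ 2 ∂μ) - (∫ x, |f x| ∂μ) ^ 2 ≤ P * ∫ x, ‖gradient f x‖ ^ 2 ∂μ := by
    refine le_trans ?_ hVar0
    simp_rw [sq_abs]
    have h1 : |∫ x, f x ∂μ| ≤ ∫ x, |f x| ∂μ := by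
      simpa [Real.norm_eq_abs] using norm_integral_le_integral_norm (μ := μ) f
    have h2 : (∫ x, f x ∂μ) ^ 2 ≤ (∫ x, |f x| ∂μ) ^ 2 := by
      rw [← sq_abs (∫ x, f x ∂μ)]
      exact pow_le_pow_left₀ (abs_nonneg _) h1 2
    linarith
  have hSup := sup' hκ hr₀ hIso hf hfc hq hM0 hMhalf
  have hEB := fun G hG hG2 => eb' (G := G) hκ hf hfc hM0 hMhalf hSup hG hG2
  have hent : Entropy μ (fun x => f x ^ 2) = Entropy μ (fun x => |f x| ^ 2) := by
    simp_rw [sq_abs]
  rw [hent]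
  set I : ℝ := ∫ x, ‖gradient f x‖ ^ 2 ∂μ with hI
  obtain ⟨B, hB⟩ := hac.exists_bound_of_continuous hcf
  have hint : ∀ φ : ℝ → ℝ, Continuous φ → Integrable (fun x => φ |f x|) μ := by
    intro φ hφ
    obtain ⟨D, hD⟩ := (isCompact_Icc (a := -B) (b := B)).exists_bound_of_continuousOn
      (f := φ) hφ.continuousOn
    refine Integrable.of_bound (hφ.comp hcf).aestronglyMeasurable D (ae_of_all _ fun x => ?_)
    exact hD _ (abs_le.1 (by simpa using hB x))
  have hi1 : Integrable (fun x => |f x| ^ 2 * Real.log (|f x| ^ 2)) μ :=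
    hint (fun u => u ^ 2 * Real.log (u ^ 2))
      (Real.continuous_mul_log.comp (continuous_pow 2))
  have hi2 : Integrable (fun x => |f x| ^ 2) μ := hint (fun u => u ^ 2) (by fun_prop)
  have hi3 : Integrable (fun x => (|f x| - M) ^ 2) μ := hint (fun u => (u - M) ^ 2) (by fun_prop)
  have hi4 : Integrable (fun x => max (|f x| - M) 0 ^ 2) μ :=
    hint (fun u => max (u - M) 0 ^ 2) (by fun_prop)
  -- the truncated second moment
  set G₀ : ℝ := ∫ x, max (|f x| - M) 0 ^ 2 ∂μ with hG₀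
  have hG₀0 : 0 ≤ G₀ := integral_nonneg fun x => by positivity
  have hG₀le : G₀ ≤ ∫ x, (|f x| - M) ^ 2 ∂μ := by
    refine integral_mono hi4 hi3 fun x => ?_
    show max (|f x| - M) 0 ^ 2 ≤ (|f x| - M) ^ 2
    rcases le_total (|f x| - M) 0 with h | h
    · rw [max_eq_right h]
      nlinarith [sq_nonneg (|f x| - M)]
    · rw [max_eq_left h]
  refine le_of_forall_pos_le_add fun ε hε => ?_
  have hε' : 0 < ε / 10 := by positivity
  set G : ℝ := G₀ + ε / 10 with hG
  have hGpos : 0 < G := by positivity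
  have hEBG := hEB G hGpos (by linarith)
  have hi5 : Integrable (fun x => max (|f x| - M) 0 ^ 2 *
      Real.log (Real.exp 1 + max (|f x| - M) 0 ^ 2 / G)) μ := by
    refine hint (fun u => max (u - M) 0 ^ 2 * Real.log (Real.exp 1 + max (u - M) 0 ^ 2 / G)) ?_
    refine Continuous.mul (by fun_prop) (Continuous.log (by fun_prop) fun u => ?_)
    have h1 := Real.exp_pos 1
    have h2 : 0 ≤ max (u - M) 0 ^ 2 / G := by positivity
    exact ne_of_gt (by linarith)
  set c : ℝ := M ^ 2 + G with hc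
  have hcpos : 0 < c := by positivity
  set m : ℝ := ∫ x, |f x| ^ 2 ∂μ with hm
  have hm0 : 0 ≤ m := integral_nonneg fun x => by positivity
  have hlog : m * Real.log c - m * Real.log m ≤ c - m := by
    rcases hm0.eq_or_lt with h | h
    · rw [← h]
      simpa using hcpos.le
    · have h1 : Real.log (c / m) ≤ c / m - 1 := Real.log_le_sub_one_of_pos (by positivity)
      rw [Real.log_div hcpos.ne' h.ne'] at h1
      have h2 := mul_le_mul_of_nonneg_left h1 h.le
      have h3 : m * (c / m - 1) = c - m := by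
        field_simp
      nlinarith [h2, h3]
  have hleft : ∫ x, (|f x| ^ 2 * Real.log (|f x| ^ 2) - |f x| ^ 2 * Real.log c - |f x| ^ 2 + c) ∂μ =
      (∫ x, |f x| ^ 2 * Real.log (|f x| ^ 2) ∂μ) - m * Real.log c - m + c := by
    have hj1 : Integrable (fun x => |f x| ^ 2 * Real.log c) μ := hi2.mul_const _
    have hj2 : Integrable (fun x => |f x| ^ 2 * Real.log (|f x| ^ 2) - |f x| ^ 2 * Real.log c) μ :=
      hi1.sub hj1
    have hj3 : Integrable
        (fun x => |f x| ^ 2 * Real.log (|f x| ^ 2) - |f x| ^ 2 * Real.log c - |f x| ^ 2) μ :=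
      hj2.sub hi2
    rw [integral_add hj3 (integrable_const c), integral_sub hj2 hi2, integral_sub hi1 hj1,
      integral_mul_const]
    simp [hm, -sq_abs]
  have hright : ∫ x, (10 * (|f x| - M) ^ 2 + 10 * G +
      10 * (max (|f x| - M) 0 ^ 2 * Real.log (Real.exp 1 + max (|f x| - M) 0 ^ 2 / G))) ∂μ =
      10 * (∫ x, (|f x| - M) ^ 2 ∂μ) + 10 * G +
      10 * ∫ x, max (|f x| - M) 0 ^ 2 * Real.log (Real.exp 1 + max (|f x| - M) 0 ^ 2 / G) ∂μ := by
    have hj1 : Integrable (fun x => 10 * (|f x| - M) ^ 2) μ := hi3.const_mul 10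
    have hj2 : Integrable (fun x => 10 * (|f x| - M) ^ 2 + 10 * G) μ :=
      hj1.add (integrable_const _)
    have hj3 : ∫ _x : EuclideanSpace ℝ (Fin n), 10 * G ∂μ = 10 * G := by
      rw [integral_const]
      simp
    rw [integral_add hj2 (hi5.const_mul 10), integral_add hj1 (integrable_const _),
      integral_const_mul, integral_const_mul 10 (fun x => max (|f x| - M) 0 ^ 2 *
        Real.log (Real.exp 1 + max (|f x| - M) 0 ^ 2 / G)), hj3]
  have hmono : ∫ x, (|f x| ^ 2 * Real.log (|f x| ^ 2) - |f x| ^ 2 * Real.log c - |f x| ^ 2 + c) ∂μ ≤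
      ∫ x, (10 * (|f x| - M) ^ 2 + 10 * G +
      10 * (max (|f x| - M) 0 ^ 2 * Real.log (Real.exp 1 + max (|f x| - M) 0 ^ 2 / G))) ∂μ := by
    refine integral_mono (((hi1.sub (hi2.mul_const _)).sub hi2).add (integrable_const c))
      (((hi3.const_mul 10).add (integrable_const _)).add (hi5.const_mul 10)) fun x => ?_
    exact H12.pw M G |f x| hM0 hGpos (abs_nonneg _)
  rw [hleft, hright] at hmono
  show (∫ x, |f x| ^ 2 * Real.log (|f x| ^ 2) ∂μ) -
    (∫ x, |f x| ^ 2 ∂μ) * Real.log (∫ x, |f x| ^ 2 ∂μ) ≤ _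
  rw [← hm]
  have hVar3 : ∫ x, (|f x| - M) ^ 2 ∂μ ≤ 3 * (P * I) := by linarith
  nlinarith [hmono, hVar3, hEBG, hG₀le, hlog]

/-- logarithmic Sobolev inequality, superlevel sets of `|f|` finite disjoint unions of closed
convex sets -/
theorem lsi_multi {n : ℕ} {μ : Measure (EuclideanSpace ℝ (Fin n))} [IsProbabilityMeasure μ]
    {a C0 P : ℝ} (ha : 0 < a) (hC0 : 0 < C0)
    (hK : H607.KLS C0) (hlc : HasLogConcaveDensity μ) (hsub : LinearlySubgaussian μ a)
    (hP : ∀ f : EuclideanSpace ℝ (Fin n) → ℝ, ContDiff ℝ ∞ f → HasCompactSupport f →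
      (∫ x, f x ^ 2 ∂μ) - (∫ x, f x ∂μ) ^ 2 ≤ P * ∫ x, ‖gradient f x‖ ^ 2 ∂μ)
    {f : EuclideanSpace ℝ (Fin n) → ℝ} (hf : ContDiff ℝ ∞ f) (hfc : HasCompactSupport f)
    (hq : ∀ t : ℝ, 0 < t → ∃ (k : ℕ) (B : Fin k → Set (EuclideanSpace ℝ (Fin n))),
      (∀ i, Convex ℝ (B i) ∧ IsClosed (B i)) ∧ (∀ i j, i ≠ j → Disjoint (B i) (B j)) ∧
        {x | t ≤ |f x|} = ⋃ i, B i) :
    Entropy μ (fun x => f x ^ 2) ≤
      (60 * P + 163840 * ((8 * C0 + 26) * a ^ 2)) * ∫ x, ‖gradient f x‖ ^ 2 ∂μ := by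
  have hlog : 0 < Real.log 2 := Real.log_pos (by norm_num)
  have h := fin' (κ := 16 * √((8 * C0 + 26) * a ^ 2))
    (r₀ := 8 * √((8 * C0 + 26) * a ^ 2 * Real.log 2)) (by positivity) (by positivity)
    (H847.iso_convex ha hC0 hK hlc hsub) hP hf hfc hq
  refine h.trans (le_of_eq ?_)
  have e : (16 * √((8 * C0 + 26) * a ^ 2)) ^ 2 = 256 * ((8 * C0 + 26) * a ^ 2) := by
    rw [mul_pow, Real.sq_sqrt (by positivity)]; norm_num
  rw [e]; ring

/-- the same for nonnegative `f` that is quasi-concave: a special case -/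
theorem finConv_of_quasi {n : ℕ} {f : EuclideanSpace ℝ (Fin n) → ℝ} (hf : Continuous f)
    (hf0 : ∀ x, 0 ≤ f x) (hfq : QuasiconcaveOn ℝ Set.univ f) (t : ℝ) :
    ∃ (k : ℕ) (B : Fin k → Set (EuclideanSpace ℝ (Fin n))),
      (∀ i, Convex ℝ (B i) ∧ IsClosed (B i)) ∧ (∀ i j, i ≠ j → Disjoint (B i) (B j)) ∧
        {x | t ≤ |f x|} = ⋃ i, B i := by
  refine ⟨1, fun _ => {x | t ≤ |f x|}, fun _ => ⟨?_, isClosed_le continuous_const hf.abs⟩,
    fun i j hij => (hij (Subsingleton.elim i j)).elim, ?_⟩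
  · have h := hfq t
    simp_rw [abs_of_nonneg (hf0 _)]
    simpa using h
  · ext x
    simp

end Vale.Agent.P245.H139
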